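import Mathlib

/-!
# Maximal commutative subfields of a division ring (P199, task MAX)
-/

namespace Vale.Agent.H56

/-- (MAX) Existence of a maximal commutative subfield. -/
theorem exists_maximal_subfield (D : Type*) [DivisionRing D] :
    ∃ L : Subfield D, (∀ a ∈ L, ∀ b ∈ L, a * b = b * a) ∧
      (∀ c : D, (∀ a ∈ L, c * a = a * c) → c ∈ L) := by
  obtain ⟨M, hM⟩ := zorn_subset {S : Set D | ∀ a ∈ S, ∀ b ∈ S, a * b = b * a} (by
    intro c hcS hc
    refine ⟨⋃₀ c, ?_, fun s hs => Set.subset_sUnion_of_mem hs⟩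
    intro a ha b hb
    obtain ⟨s, hs, has⟩ := ha
    obtain ⟨t, ht, hbt⟩ := hb
    rcases hc.total hs ht with hst | hts
    · exact hcS ht a (hst has) b hbt
    · exact hcS hs a has b (hts hbt))
  have hcomm : ∀ a ∈ M, ∀ b ∈ M, a * b = b * a := hM.prop
  -- maximality: anything commuting with `M` lies in `M`
  have hmax : ∀ c : D, (∀ a ∈ M, c * a = a * c) → c ∈ M := by
    intro c hc
    have hins : insert c M ∈ {S : Set D | ∀ a ∈ S, ∀ b ∈ S, a * b = b * a} := by
      intro a ha b hb
      rcases ha with rfl | ha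
      · rcases hb with rfl | hb
        · rfl
        · exact hc b hb
      · rcases hb with rfl | hb
        · exact (hc a ha).symm
        · exact hcomm a ha b hb
    have hsub : insert c M ⊆ M := hM.le_of_ge hins (Set.subset_insert c M)
    exact hsub (Set.mem_insert c M)
  have hzero : (0 : D) ∈ M := hmax 0 (fun a _ => by simp)
  have hone : (1 : D) ∈ M := hmax 1 (fun a _ => by simp)
  have hadd : ∀ {a b : D}, a ∈ M → b ∈ M → a + b ∈ M := by
    intro a b ha hb
    apply hmax
    intro x hx
    rw [add_mul, mul_add, hcomm a ha x hx, hcomm b hb x hx]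
  have hneg : ∀ {a : D}, a ∈ M → -a ∈ M := by
    intro a ha
    apply hmax
    intro x hx
    rw [neg_mul, mul_neg, hcomm a ha x hx]
  have hmul : ∀ {a b : D}, a ∈ M → b ∈ M → a * b ∈ M := by
    intro a b ha hb
    apply hmax
    intro x hx
    rw [mul_assoc, hcomm b hb x hx, ← mul_assoc, hcomm a ha x hx, mul_assoc]
  have hinv : ∀ a ∈ M, a⁻¹ ∈ M := by
    intro a ha
    apply hmax
    intro x hx
    by_cases ha0 : a = 0
    · subst ha0
      simp
    · have h1 : a * x = x * a := hcomm a ha x hx
      calc a⁻¹ * x = a⁻¹ * (x * a) * a⁻¹ := by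
            rw [mul_assoc, mul_assoc, mul_inv_cancel₀ ha0, mul_one]
        _ = a⁻¹ * (a * x) * a⁻¹ := by rw [h1]
        _ = x * a⁻¹ := by rw [← mul_assoc, inv_mul_cancel₀ ha0, one_mul]
  refine ⟨{ carrier := M
            mul_mem' := hmul
            one_mem' := hone
            add_mem' := hadd
            zero_mem' := hzero
            neg_mem' := hneg
            inv_mem' := hinv }, ?_, ?_⟩
  · intro a ha b hb
    exact hcomm a ha b hb
  · intro c hc
    exact hmax c hc

end Vale.Agent.H56
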